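import Vale.Agent.P032.H187.Product

/-!
# P032: an exact pair of `S(z)` next to `y` is never a letter of `S(y)`

`pair_rule`: if `|y - z| = 1` and the arcs of `S(z)` which carry both colours `a`, `b` accumulate at
`y`, then no point `r` of `S(y)` has its palette in `{a, b}`.  (Off the line `zy` this is the closure
form of the product rule, at `r = z` the gap lemma; at the antipode `r = 2 y - z` the arc of `S(z)`
would be an arc of a straight border.)
-/

open Set Filter Topology Metric

noncomputable section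

namespace Vale.Agent.P032.H889

open Vale.Agent.P032.Six Vale.Agent.P032.S5.H767 Vale.Agent.P032.H187

variable {k : ℕ} {U : Fin k → Set ℂ} {T : ℂ → Set (Fin k)}

/-- an arc contains two points: near a point of `Cr U z P` there is a second point of the circle
which carries the colours of `P` -/
theorem exists_second {z p : ℂ} {P : Set (Fin k)} (hp : p ∈ Cr U z P) {N : Set ℂ} (hN : N ∈ 𝓝 p) :
    ∃ p' ∈ N, dist p' z = 1 ∧ p' ≠ p ∧ P ⊆ Pal U p' := by
  have h1 : ∃ᶠ x in 𝓝[≠] p, dist x z = 1 := by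
    have hc : Tendsto (fun s : ℝ => z + (p - z) * cis s) (𝓝[≠] 0) (𝓝[≠] p) := by
      refine tendsto_nhdsWithin_iff.2 ⟨?_, ?_⟩
      · have h2 : Continuous fun s : ℝ => z + (p - z) * cis s :=
          continuous_const.add (continuous_const.mul continuous_cis)
        have h3 := h2.tendsto 0
        have h4 : cis 0 = 1 := by unfold cis; simp
        rw [h4, mul_one, add_sub_cancel] at h3
        exact h3.mono_left nhdsWithin_le_nhds
      · have h5 : ∀ᶠ s : ℝ in 𝓝[≠] 0, s ∈ Ioo (-3 : ℝ) 3 :=
          mem_nhdsWithin_of_mem_nhds (Ioo_mem_nhds (by norm_num) (by norm_num))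
        filter_upwards [self_mem_nhdsWithin, h5] with s hs hs3 hcon
        have hcon : z + (p - z) * cis s = p := hcon
        have hpz : p - z ≠ 0 := by
          intro h0
          have := hp.1
          rw [dist_eq_norm, h0, norm_zero] at this
          exact zero_ne_one this
        have h6 : (p - z) * cis s = (p - z) * 1 := by linear_combination hcon
        have h7 : cis s = 1 := mul_left_cancel₀ hpz h6
        unfold cis at h7
        rw [Complex.exp_eq_one_iff] at h7
        obtain ⟨n, hn⟩ := h7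
        have h8 : (s : ℂ) = (n * (2 * Real.pi) : ℝ) := by
          have : (s : ℂ) * Complex.I = ((n * (2 * Real.pi) : ℝ) : ℂ) * Complex.I := by
            rw [hn]; push_cast; ring
          exact mul_right_cancel₀ Complex.I_ne_zero this
        have h9 : s = n * (2 * Real.pi) := by exact_mod_cast h8
        rcases lt_trichotomy n 0 with h10 | h10 | h10
        · have h11 : (n : ℝ) ≤ -1 := by exact_mod_cast (by omega : n ≤ -1)
          nlinarith [Real.pi_gt_three, hs3.1]
        · rw [h10] at h9; exact hs (by simpa using h9)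
        · have h11 : (1 : ℝ) ≤ n := by exact_mod_cast (by omega : 1 ≤ n)
          nlinarith [Real.pi_gt_three, hs3.2]
    refine hc.frequently (Eventually.frequently (Eventually.of_forall fun s => ?_))
    rw [dist_eq_norm, add_sub_cancel_left, norm_mul, norm_cis, mul_one, ← dist_eq_norm]
    exact hp.1
  have h2 : ∀ᶠ x in 𝓝[≠] p, x ∈ N ∧ (dist x z = 1 → P ⊆ Pal U x) := by
    have h3 := (eventually_nhdsWithin_iff.1 hp.2)
    exact mem_nhdsWithin_of_mem_nhds (inter_mem hN (h3.mono fun x hx hx1 => hx hx1))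
  obtain ⟨x, ⟨hx, hxN, hxP⟩, hxp⟩ :=
    ((h1.and_eventually h2).and_eventually self_mem_nhdsWithin).exists
  exact ⟨x, hxN, hx, hxp, hxP hx⟩

/-- **Pair rule.** -/
theorem pair_rule (h : Irr U T) {z y r : ℂ} {a b : Fin k} (hy : y ∈ closure (Cr U z {a, b}))
    (hr : dist y r = 1) : ¬ T r ⊆ {a, b} := by
  intro hsub
  rcases eq_or_ne r z with rfl | hrz
  · -- `r = z`
    obtain ⟨p, hp⟩ := (mem_closure_iff_nhds.1 hy _ univ_mem)
    have hp := hp.2
    have hz : r ∈ XX U := by
      obtain ⟨i, hi⟩ := h.ne r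
      exact h.mem_XX (by rw [dist_comm]; exact hp.1) hi (hp.2.self_of_nhdsWithin hp.1 (hsub hi))
    exact h.gap hz hp.1 hp.2 a (hsub.trans (subset_insert _ _))
  rcases eq_or_ne (r + z) (2 * y) with hrz2 | hrz2
  · -- the antipode
    have hr' : r = 2 * y - z := by linear_combination hrz2
    have hyr : y ≠ r := by
      intro h0; rw [h0, dist_self] at hr; exact zero_ne_one hr
    -- two points of `S(z)` near `y`
    have hN : ∀ᶠ v : ℂ × ℂ in 𝓝 (y, y), T (v.1 + v.2 - z) ⊆ T r ∧
        v.1 + v.2 - 2 * (v.1 + v.2 - z) ≠ 0 := by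
      have hc : Tendsto (fun v : ℂ × ℂ => v.1 + v.2 - z) (𝓝 (y, y)) (𝓝 r) := by
        have h2 : Continuous fun v : ℂ × ℂ => v.1 + v.2 - z := by fun_prop
        have h3 := h2.tendsto (y, y)
        rw [hr']
        convert h3 using 2
        simp only; ring
      have hc2 : Tendsto (fun v : ℂ × ℂ => v.1 + v.2 - 2 * (v.1 + v.2 - z)) (𝓝 (y, y))
          (𝓝 (2 * (y - r))) := by
        have h2 : Continuous fun v : ℂ × ℂ => v.1 + v.2 - 2 * (v.1 + v.2 - z) := by fun_prop
        have h3 := h2.tendsto (y, y)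
        rw [hr']
        convert h3 using 2
        simp only; ring
      exact (hc.eventually (h.nhd r)).and
        (hc2.eventually (isOpen_ne.mem_nhds (mul_ne_zero two_ne_zero (sub_ne_zero.2 hyr))))
    obtain ⟨N, hN1, hN2⟩ : ∃ N ∈ 𝓝 y, ∀ v ∈ N, ∀ w ∈ N, T (v + w - z) ⊆ T r ∧
        v + w - 2 * (v + w - z) ≠ 0 := by
      rw [nhds_prod_eq] at hN
      obtain ⟨N, hN1, hN2⟩ := Filter.mem_prod_self_iff.1 hN
      exact ⟨N, hN1, fun v hv w hw => hN2 (mk_mem_prod hv hw)⟩
    obtain ⟨O, hON, hO, hyO⟩ := _root_.mem_nhds_iff.1 hN1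
    obtain ⟨p, hpO, hp⟩ := mem_closure_iff_nhds.1 hy O (hO.mem_nhds hyO)
    obtain ⟨p', hp'O, hp'z, hpp', hp'P⟩ := exists_second hp (hO.mem_nhds hpO)
    obtain ⟨h1, h2⟩ := hN2 p (hON hpO) p' (hON hp'O)
    have h3 : dist (p + p' - z) p = 1 := by
      rw [dist_eq_norm, show p + p' - z - p = p' - z by ring, ← dist_eq_norm]; exact hp'z
    have h4 : dist (p + p' - z) p' = 1 := by
      rw [dist_eq_norm, show p + p' - z - p' = p - z by ring, ← dist_eq_norm]; exact hp.1
    have hpP : ({a, b} : Set (Fin k)) ⊆ Pal U p := hp.2.self_of_nhdsWithin hp.1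
    rcases h.lemmaB (h1.trans hsub) h3 h4 (hpP (Or.inl rfl)) (hp'P (Or.inr rfl)) with h5 | h5
    · exact hpp' h5
    · exact h2 (by linear_combination h5)
  · exact R2 h hy hr hrz hrz2 hsub

/-- the pair rule for exact pairs -/
theorem pair_rule_ex (h : Irr U T) {z y r : ℂ} {a b : Fin k} (hy : y ∈ closure (Ex T z {a, b}))
    (hr : dist y r = 1) : T r ≠ {a, b} := fun h1 =>
  pair_rule h (closure_mono (Ex_Cr h) hy) hr h1.subset

/-- a pair letter of `S(z)` at `y` is not a letter of `S(y)` -/
theorem pair_not_letter (h : Irr U T) {z y : ℂ} {a b : Fin k} (hy : y ∈ closure (Ex T z {a, b})) :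
    Ex T y {a, b} = ∅ := by
  rw [eq_empty_iff_forall_notMem]
  intro r hr
  exact pair_rule_ex h hy (by rw [dist_comm]; exact hr.1) (ex_self hr)

/-- the pair rule in the angle coordinate: the closed letter sets `{u | pt z u ∈ closure (Ex T z P)}` -/
theorem pair_pt (h : Irr U T) {z y : ℂ} {a b : Fin k} {u₀ : ℝ} (hu : pt z u₀ = y)
    (hy : pt z u₀ ∈ closure (Ex T z {a, b})) (u : ℝ) :
    T (pt y u) ≠ {a, b} ∧ pt y u ∉ closure (Ex T y {a, b}) := by
  rw [hu] at hy
  refine ⟨pair_rule_ex h hy (by rw [dist_comm]; exact dist_pt y u), ?_⟩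
  rw [pair_not_letter h hy, closure_empty]
  exact notMem_empty _

end Vale.Agent.P032.H889
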