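import Mathlib

/-!
# P032: sign functions on the circle of length 6 (pure part of the sign calculus)

Angles in units of 60 degrees.  A sign function `s : ℝ → ZMod 2` jumps by `F x` at `x` (`Jump`), and
is locally constant off `B` (`Gen`).  For a set `S` of special directions (period 6, finite in
`[0, 6)`) let `s` flip exactly where one of `x`, `x + 1` is in `S`.  If no generic `t` has
`s t = s (t + 1) = s (t + 2)` then

* `spanning`: every open interval of length more than `3` (180 degrees) meets `S`;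
* `parity`: if the number of special directions is even, then on every coset `y + ℤ` the set `S` is
  either antipodally symmetric, or it meets every antipodal pair in exactly one point;
* `count`: the sum of the six signs of a generic column is the number of special directions mod 2;
* `total`: the sum of all the jumps in one turn is zero.
-/

open Set Filter Topology

namespace Vale.Agent.P032.H889.Sgn

/-- `s` jumps by `F x` at every `x` -/
def Jump (s F : ℝ → ZMod 2) : Prop :=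
  ∀ x, ∀ᶠ t in 𝓝[<] x, ∀ᶠ t' in 𝓝[>] x, s t' = s t + F x

/-- `s` is locally constant off `B` -/
def Gen (s : ℝ → ZMod 2) (B : Set ℝ) : Prop := ∀ x, x ∉ B → ∀ᶠ t in 𝓝 x, s t = s x

theorem z2 (a b : ZMod 2) : a + b = 0 ↔ a = b := by
  revert a b; decide

theorem z2_self (a : ZMod 2) : a + a = 0 := by revert a; decide

theorem tendsto_add_left (x c : ℝ) : Tendsto (fun t => t + c) (𝓝[<] x) (𝓝[<] (x + c)) := by
  refine tendsto_nhdsWithin_iff.2 ⟨?_, ?_⟩
  · exact ((continuous_add_const c).tendsto x).mono_left nhdsWithin_le_nhds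
  · filter_upwards [self_mem_nhdsWithin] with t ht
    exact (by simpa using ht : t + c < x + c)

theorem tendsto_add_right (x c : ℝ) : Tendsto (fun t => t + c) (𝓝[>] x) (𝓝[>] (x + c)) := by
  refine tendsto_nhdsWithin_iff.2 ⟨?_, ?_⟩
  · exact ((continuous_add_const c).tendsto x).mono_left nhdsWithin_le_nhds
  · filter_upwards [self_mem_nhdsWithin] with t ht
    exact (by simpa using ht : x + c < t + c)

theorem Jump.add {s s' F F' : ℝ → ZMod 2} (h : Jump s F) (h' : Jump s' F') :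
    Jump (fun t => s t + s' t) (fun x => F x + F' x) := by
  intro x
  filter_upwards [h x, h' x] with t ht ht'
  filter_upwards [ht, ht'] with t' h1 h2
  show s t' + s' t' = s t + s' t + (F x + F' x)
  rw [h1, h2]; ring

theorem Jump.shift {s F : ℝ → ZMod 2} (h : Jump s F) (c : ℝ) :
    Jump (fun t => s (t + c)) (fun x => F (x + c)) := by
  intro x
  have h1 := (tendsto_add_left x c).eventually (h (x + c))
  filter_upwards [h1] with t ht
  exact (tendsto_add_right x c).eventually ht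

theorem Gen.add {s s' : ℝ → ZMod 2} {B : Set ℝ} (h : Gen s B) (h' : Gen s' B) :
    Gen (fun t => s t + s' t) B := by
  intro x hx
  filter_upwards [h x hx, h' x hx] with t h1 h2
  show s t + s' t = s x + s' x
  rw [h1, h2]

/-- a function without jumps is constant off `B` -/
theorem const_of_jump_zero {s : ℝ → ZMod 2} {B : Set ℝ} (h : Jump s (fun _ => 0)) (hB : Gen s B) :
    ∃ c, ∀ x, x ∉ B → s x = c := by
  have h1 : ∀ x, ∃ c, ∀ᶠ t in 𝓝[≠] x, s t = c := by
    intro x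
    have h2 := h x
    obtain ⟨t₀, ht₀⟩ := h2.exists
    have h3 : ∀ᶠ t' in 𝓝[>] x, s t' = s t₀ := by
      filter_upwards [ht₀] with t' ht'
      simpa using ht'
    refine ⟨s t₀, ?_⟩
    rw [← nhdsLT_sup_nhdsGT, eventually_sup]
    refine ⟨?_, h3⟩
    filter_upwards [h2] with t ht
    obtain ⟨t', h4, h5⟩ := (ht.and h3).exists
    rw [← h5, h4, add_zero]
  choose c hc using h1
  have hloc : IsLocallyConstant c := by
    rw [IsLocallyConstant.iff_eventually_eq]
    intro x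
    have h2 := hc x
    rw [eventually_nhdsWithin_iff] at h2
    filter_upwards [h2.eventually_nhds] with y hy
    have h3 : ∀ᶠ t in 𝓝[≠] y, t ≠ x := by
      rcases eq_or_ne y x with rfl | hyx
      · exact self_mem_nhdsWithin
      · exact mem_nhdsWithin_of_mem_nhds (isOpen_ne.mem_nhds hyx)
    have h4 : ∀ᶠ t in 𝓝[≠] y, (t ∈ ({x} : Set ℝ)ᶜ → s t = c x) := mem_nhdsWithin_of_mem_nhds hy
    obtain ⟨t, ht1, ht2, ht3⟩ := ((hc y).and (h4.and h3)).exists
    rw [← ht1, ht2 ht3]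
  refine ⟨c 0, fun x hx => ?_⟩
  obtain ⟨t, h2, h3⟩ := ((hc x).and (mem_nhdsWithin_of_mem_nhds (hB x hx) :
    ∀ᶠ t in 𝓝[≠] x, _)).exists
  rw [← h3, h2]
  exact hloc.apply_eq_of_isPreconnected isPreconnected_univ (mem_univ _) (mem_univ _)

/-- two functions with the same jumps differ by a constant -/
theorem eq_add_const {s s' F : ℝ → ZMod 2} {B : Set ℝ} (h : Jump s F) (h' : Jump s' F)
    (hB : Gen s B) (hB' : Gen s' B) : ∃ c, ∀ x, x ∉ B → s x = s' x + c := by
  have h1 : Jump (fun t => s t + s' t) (fun _ => 0) := by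
    have h2 := h.add h'
    simpa only [z2_self] using h2
  obtain ⟨c, hc⟩ := const_of_jump_zero h1 (hB.add hB')
  refine ⟨c, fun x hx => ?_⟩
  have h2 := hc x hx
  have h3 : s x + s' x + s' x = c + s' x := by rw [h2]
  rw [add_assoc, z2_self, add_zero] at h3
  rw [h3, add_comm]

/-! ### the counting function -/

/-- `⌊(t - x) / 6⌋` jumps by one at the points of `x + 6 ℤ` -/
theorem floor_jump (x y : ℝ) (hy : ∃ n : ℤ, y = x + 6 * n) :
    ∀ᶠ t in 𝓝[<] y, ∀ᶠ t' in 𝓝[>] y, ⌊(t' - x) / 6⌋ = ⌊(t - x) / 6⌋ + 1 := by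
  obtain ⟨n, rfl⟩ := hy
  have h1 : ∀ᶠ t in 𝓝[<] (x + 6 * (n : ℝ)), ⌊(t - x) / 6⌋ = n - 1 := by
    have h2 : ∀ᶠ t in 𝓝[<] (x + 6 * (n : ℝ)), t ∈ Ioo (x + 6 * (n : ℝ) - 6) (x + 6 * n) :=
      Ioo_mem_nhdsLT (by linarith)
    filter_upwards [h2] with t ht
    rw [Int.floor_eq_iff]
    push_cast
    constructor
    · linarith [ht.1]
    · linarith [ht.2]
  have h3 : ∀ᶠ t in 𝓝[>] (x + 6 * (n : ℝ)), ⌊(t - x) / 6⌋ = n := by
    have h2 : ∀ᶠ t in 𝓝[>] (x + 6 * (n : ℝ)), t ∈ Ioo (x + 6 * (n : ℝ)) (x + 6 * n + 6) :=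
      Ioo_mem_nhdsGT (by linarith)
    filter_upwards [h2] with t ht
    rw [Int.floor_eq_iff]
    constructor
    · linarith [ht.1]
    · linarith [ht.2]
  filter_upwards [h1] with t ht
  filter_upwards [h3] with t' ht'
  rw [ht, ht']; ring

/-- off `x + 6 ℤ` the function `⌊(t - x) / 6⌋` is locally constant -/
theorem floor_const (x y : ℝ) (hy : ¬ ∃ n : ℤ, y = x + 6 * n) :
    ∀ᶠ t in 𝓝 y, ⌊(t - x) / 6⌋ = ⌊(y - x) / 6⌋ := by
  have h1 : (⌊(y - x) / 6⌋ : ℝ) < (y - x) / 6 := by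
    refine lt_of_le_of_ne (Int.floor_le _) fun h => hy ⟨⌊(y - x) / 6⌋, ?_⟩
    rw [h]; ring
  have h2 := Int.lt_floor_add_one ((y - x) / 6)
  have h3 : ∀ᶠ t in 𝓝 y, t ∈ Ioo (x + 6 * (⌊(y - x) / 6⌋ : ℝ)) (x + 6 * (⌊(y - x) / 6⌋ : ℝ) + 6) :=
    Ioo_mem_nhds (by linarith) (by linarith)
  filter_upwards [h3] with t ht
  rw [Int.floor_eq_iff]
  constructor
  · linarith [ht.1]
  · linarith [ht.2]

/-- the counting function with weights `F` -/
noncomputable def Cnt (E : Finset ℝ) (F : ℝ → ZMod 2) (t : ℝ) : ZMod 2 :=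
  ∑ x ∈ E, F x * (⌊(t - x) / 6⌋ : ℤ)

theorem Cnt_add_six (E : Finset ℝ) (F : ℝ → ZMod 2) (t : ℝ) :
    Cnt E F (t + 6) = Cnt E F t + ∑ x ∈ E, F x := by
  unfold Cnt
  rw [← Finset.sum_add_distrib]
  refine Finset.sum_congr rfl fun x _ => ?_
  have h1 : (t + 6 - x) / 6 = (t - x) / 6 + 1 := by ring
  rw [h1, Int.floor_add_one]
  push_cast; ring

/-- `E` represents the support of `F` -/
structure Rep (E : Finset ℝ) (F : ℝ → ZMod 2) : Prop where
  per : ∀ x, F (x + 6) = F x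
  mem : ∀ x ∈ E, 0 ≤ x ∧ x < 6
  supp : ∀ x, 0 ≤ x → x < 6 → x ∉ E → F x = 0

theorem per_int {F : ℝ → ZMod 2} (h : ∀ x, F (x + 6) = F x) (x : ℝ) (n : ℤ) :
    F (x + 6 * n) = F x := by
  induction n using Int.induction_on with
  | zero => simp
  | succ n ih =>
    rw [← ih, ← h (x + 6 * ((n : ℤ) : ℝ))]; congr 1; push_cast; ring
  | pred n ih =>
    rw [← ih, ← h (x + 6 * (((-(n : ℤ) - 1 : ℤ)) : ℝ))]; congr 1; push_cast; ring

theorem exists_rep (y : ℝ) : ∃ x, ∃ n : ℤ, 0 ≤ x ∧ x < 6 ∧ y = x + 6 * n := by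
  refine ⟨y - 6 * ⌊y / 6⌋, ⌊y / 6⌋, ?_, ?_, by ring⟩
  · have := Int.floor_le (y / 6); linarith
  · have := Int.lt_floor_add_one (y / 6); linarith

theorem rep_unique {x x' : ℝ} {n n' : ℤ} (hx : 0 ≤ x) (hx6 : x < 6) (hx' : 0 ≤ x') (hx6' : x' < 6)
    (h : x + 6 * n = x' + 6 * n') : x = x' := by
  have h1 : (n : ℝ) - n' = (x' - x) / 6 := by linarith
  have h2 : n = n' := by
    by_contra hne
    rcases lt_or_gt_of_ne hne with h3 | h3
    · have h4 : (n : ℝ) + 1 ≤ n' := by exact_mod_cast h3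
      linarith
    · have h4 : (n' : ℝ) + 1 ≤ n := by exact_mod_cast h3
      linarith
  rw [h2] at h; linarith

/-- the counting function jumps by `F` -/
theorem Rep.jump {E : Finset ℝ} {F : ℝ → ZMod 2} (h : Rep E F) : Jump (Cnt E F) F := by
  classical
  intro y
  have h1 : ∀ x ∈ E, ∀ᶠ t in 𝓝[<] y, ∀ᶠ t' in 𝓝[>] y,
      (⌊(t' - x) / 6⌋ : ℤ) = ⌊(t - x) / 6⌋ + if ∃ n : ℤ, y = x + 6 * n then 1 else 0 := by
    intro x _
    by_cases hx : ∃ n : ℤ, y = x + 6 * n
    · rw [if_pos hx]; exact floor_jump x y hx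
    · rw [if_neg hx]
      have h2 := floor_const x y hx
      filter_upwards [mem_nhdsWithin_of_mem_nhds h2] with t ht
      filter_upwards [mem_nhdsWithin_of_mem_nhds h2] with t' ht'
      rw [add_zero]
      exact ht'.trans ht.symm
  have h2 : ∀ᶠ t in 𝓝[<] y, ∀ x ∈ E, ∀ᶠ t' in 𝓝[>] y,
      (⌊(t' - x) / 6⌋ : ℤ) = ⌊(t - x) / 6⌋ + if ∃ n : ℤ, y = x + 6 * n then 1 else 0 :=
    (Finset.eventually_all E).2 h1
  filter_upwards [h2] with t ht
  filter_upwards [(Finset.eventually_all E).2 ht] with t' ht'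
  unfold Cnt
  have h3 : ∑ x ∈ E, F x * ((⌊(t' - x) / 6⌋ : ℤ) : ZMod 2) =
      ∑ x ∈ E, F x * ((⌊(t - x) / 6⌋ : ℤ) : ZMod 2) +
        ∑ x ∈ E, F x * (if ∃ n : ℤ, y = x + 6 * n then 1 else 0) := by
    rw [← Finset.sum_add_distrib]
    refine Finset.sum_congr rfl fun x hx => ?_
    rw [ht' x hx]
    push_cast
    rw [mul_add]
  rw [h3]
  congr 1
  obtain ⟨x₀, n₀, hx₀, hx₀6, hy⟩ := exists_rep y
  have h4 : ∀ x ∈ E, (∃ n : ℤ, y = x + 6 * n) → x = x₀ := by
    rintro x hx ⟨n, hn⟩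
    exact rep_unique (h.mem x hx).1 (h.mem x hx).2 hx₀ hx₀6 (by rw [← hn, ← hy])
  have hFy : F y = F x₀ := by rw [hy]; exact per_int h.per _ _
  by_cases hxE : x₀ ∈ E
  · rw [Finset.sum_eq_single x₀, if_pos ⟨n₀, hy⟩, mul_one, hFy]
    · intro x hx hne
      rw [if_neg fun hn => hne (h4 x hx hn), mul_zero]
    · exact fun hcon => absurd hxE hcon
  · rw [hFy, h.supp x₀ hx₀ hx₀6 hxE]
    refine Finset.sum_eq_zero fun x hx => ?_
    rw [if_neg, mul_zero]
    intro hn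
    exact hxE (h4 x hx hn ▸ hx)

/-- the counting function is locally constant off the support -/
theorem Cnt_gen {E : Finset ℝ} {F : ℝ → ZMod 2} {B : Set ℝ}
    (hB : ∀ x, x ∉ B → ∀ y ∈ E, ¬ ∃ n : ℤ, x = y + 6 * n) : Gen (Cnt E F) B := by
  intro x hx
  have h1 : ∀ y ∈ E, ∀ᶠ t in 𝓝 x, ⌊(t - y) / 6⌋ = ⌊(x - y) / 6⌋ := fun y hy =>
    floor_const y x (hB x hx y hy)
  filter_upwards [(Finset.eventually_all E).2 h1] with t ht
  unfold Cnt
  exact Finset.sum_congr rfl fun y hy => by rw [ht y hy]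

/-! ### sign functions with the special directions `S` -/

open Classical in
/-- the indicator -/
noncomputable def ind (S : Set ℝ) (x : ℝ) : ZMod 2 := if x ∈ S then 1 else 0

theorem ind_add {S : Set ℝ} {x y : ℝ} : ind S x + ind S y = 0 ↔ (x ∈ S ↔ y ∈ S) := by
  unfold ind
  by_cases hx : x ∈ S <;> by_cases hy : y ∈ S <;> simp [hx, hy]
  decide

/-- a sign function which flips exactly at the `x` with one of `x`, `x + 1` in `S`, without three
equal signs in a row -/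
structure Sign (S : Set ℝ) (s : ℝ → ZMod 2) : Prop where
  per : ∀ x, x + 6 ∈ S ↔ x ∈ S
  fin : (S ∩ Ico 0 6).Finite
  sper : ∀ t : ℝ, (∀ k : ℤ, t + (k : ℝ) ∉ S) → s (t + 6) = s t
  jump : Jump s (fun x => ind S x + ind S (x + 1))
  gen : Gen s {x | x ∈ S ∨ x + 1 ∈ S}
  no : ∀ t : ℝ, (∀ k : ℤ, t + (k : ℝ) ∉ S) → ¬ (s t = s (t + 1) ∧ s (t + 1) = s (t + 2))

theorem dec_six : ∀ v0 v1 v2 v3 v4 v5 : ZMod 2, v0 + v1 + v2 + v3 + v4 + v5 = 0 →
    ¬ (v0 = v1 ∧ v1 = v2) → ¬ (v1 = v2 ∧ v2 = v3) → ¬ (v2 = v3 ∧ v3 = v4) →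
    ¬ (v3 = v4 ∧ v4 = v5) → ¬ (v4 = v5 ∧ v5 = v0) → ¬ (v5 = v0 ∧ v0 = v1) → v0 = v3 := by
  decide

namespace Sign

variable {S : Set ℝ} {s : ℝ → ZMod 2}

theorem ind_per (h : Sign S s) (x : ℝ) : ind S (x + 6) = ind S x := by
  rw [← z2, ind_add]; exact h.per x

theorem perI (h : Sign S s) (x : ℝ) (n : ℤ) : x + 6 * n ∈ S ↔ x ∈ S := by
  have h1 := per_int (F := ind S) (ind_per h) x n
  rw [← z2, ind_add] at h1
  exact h1

theorem rep (h : Sign S s) : Rep h.fin.toFinset (ind S) where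
  per := ind_per h
  mem x hx := by
    have := h.fin.mem_toFinset.1 hx
    exact ⟨this.2.1, this.2.2⟩
  supp x hx hx6 hxE := by
    have h1 : x ∉ S := fun hxS => hxE (h.fin.mem_toFinset.2 ⟨hxS, hx, hx6⟩)
    unfold ind; simp [h1]

theorem sum_ind (h : Sign S s) :
    ∑ x ∈ h.fin.toFinset, ind S x = ((S ∩ Ico 0 6).ncard : ZMod 2) := by
  have h1 : ∑ x ∈ h.fin.toFinset, ind S x = ∑ x ∈ h.fin.toFinset, (1 : ZMod 2) := by
    refine Finset.sum_congr rfl fun x hx => ?_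
    have := (h.fin.mem_toFinset.1 hx).1
    unfold ind; simp [this]
  rw [h1, Finset.sum_const, nsmul_eq_mul, mul_one, Set.ncard_eq_toFinset_card _ h.fin]

/-- the explicit form of a sign function -/
theorem eq_cnt (h : Sign S s) : ∃ c, ∀ t, t ∉ {x | x ∈ S ∨ x + 1 ∈ S} →
    s t = Cnt h.fin.toFinset (ind S) t + Cnt h.fin.toFinset (ind S) (t + 1) + c := by
  have h1 : Gen (Cnt h.fin.toFinset (ind S)) {x | x ∈ S ∨ x + 1 ∈ S} := by
    refine Cnt_gen fun x hx y hy => ?_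
    rintro ⟨n, rfl⟩
    exact hx (Or.inl ((h.perI y n).2 (h.fin.mem_toFinset.1 hy).1))
  have h2 : Gen (fun t => Cnt h.fin.toFinset (ind S) (t + 1)) {x | x ∈ S ∨ x + 1 ∈ S} := by
    have h3 : Gen (Cnt h.fin.toFinset (ind S)) S := by
      refine Cnt_gen fun x hx y hy => ?_
      rintro ⟨n, rfl⟩
      exact hx ((h.perI y n).2 (h.fin.mem_toFinset.1 hy).1)
    intro x hx
    have hx1 : x + 1 ∉ S := fun hcon => hx (Or.inr hcon)
    exact ((continuous_add_const (1 : ℝ)).tendsto x).eventually (h3 (x + 1) hx1)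
  exact eq_add_const h.jump (h.rep.jump.add (h.rep.jump.shift 1)) h.gen (h1.add h2)

theorem gens {t : ℝ} (ht : ∀ k : ℤ, t + (k : ℝ) ∉ S) (k : ℕ) :
    t + k ∉ {x | x ∈ S ∨ x + 1 ∈ S} := by
  rintro (h1 | h1)
  · exact ht k (by exact_mod_cast h1)
  · exact ht (k + 1) (by push_cast; rw [← add_assoc]; exact_mod_cast h1)

/-- **the sum of the signs of a column** -/
theorem count (h : Sign S s) {t : ℝ} (ht : ∀ k : ℤ, t + (k : ℝ) ∉ S) :
    s t + s (t + 1) + s (t + 2) + s (t + 3) + s (t + 4) + s (t + 5) =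
      ((S ∩ Ico 0 6).ncard : ZMod 2) := by
  obtain ⟨c, hc⟩ := h.eq_cnt
  have h0 := hc t (by simpa using gens ht 0)
  have h1 := hc (t + 1) (by simpa using gens ht 1)
  have h2 := hc (t + 2) (by simpa using gens ht 2)
  have h3 := hc (t + 3) (by simpa using gens ht 3)
  have h4 := hc (t + 4) (by simpa using gens ht 4)
  have h5 := hc (t + 5) (by simpa using gens ht 5)
  have h6 := Cnt_add_six h.fin.toFinset (ind S) t
  rw [h.sum_ind] at h6
  rw [show t + 1 + 1 = t + 2 by ring] at h1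
  rw [show t + 2 + 1 = t + 3 by ring] at h2
  rw [show t + 3 + 1 = t + 4 by ring] at h3
  rw [show t + 4 + 1 = t + 5 by ring] at h4
  rw [show t + 5 + 1 = t + 6 by ring, h6] at h5
  rw [h0, h1, h2, h3, h4, h5]
  generalize Cnt h.fin.toFinset (ind S) t = x0
  generalize Cnt h.fin.toFinset (ind S) (t + 1) = x1
  generalize Cnt h.fin.toFinset (ind S) (t + 2) = x2
  generalize Cnt h.fin.toFinset (ind S) (t + 3) = x3
  generalize Cnt h.fin.toFinset (ind S) (t + 4) = x4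
  generalize Cnt h.fin.toFinset (ind S) (t + 5) = x5
  generalize ((S ∩ Ico 0 6).ncard : ZMod 2) = n
  have e : x0 + x1 + c + (x1 + x2 + c) + (x2 + x3 + c) + (x3 + x4 + c) + (x4 + x5 + c) +
      (x5 + (x0 + n) + c) = (x0 + x0) + (x1 + x1) + (x2 + x2) + (x3 + x3) + (x4 + x4) +
        (x5 + x5) + (c + c) + (c + c) + (c + c) + n := by ring
  rw [e]
  simp only [z2_self, zero_add]

/-- if the number of special directions is even, antipodal signs are equal -/
theorem anti (h : Sign S s) (he : Even (S ∩ Ico 0 6).ncard) {t : ℝ} (ht : ∀ k : ℤ, t + (k : ℝ) ∉ S) :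
    s (t + 3) = s t := by
  have h0 := h.count ht
  have hn : ((S ∩ Ico 0 6).ncard : ZMod 2) = 0 := by
    rw [ZMod.natCast_eq_zero_iff_even]; exact he
  rw [hn] at h0
  have hg : ∀ n : ℤ, ∀ k : ℤ, t + n + k ∉ S := fun n k => by
    have := ht (n + k); push_cast at this; rwa [← add_assoc] at this
  have h1 := h.no t ht
  have h2 := h.no (t + 1) (by simpa using hg 1)
  have h3 := h.no (t + 2) (by simpa using hg 2)
  have h4 := h.no (t + 3) (by simpa using hg 3)
  have h5 := h.no (t + 4) (by simpa using hg 4)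
  have h6 := h.no (t + 5) (by simpa using hg 5)
  have p0 := h.sper t ht
  have p1 := h.sper (t + 1) (by simpa using hg 1)
  rw [show t + 1 + 1 = t + 2 by ring, show t + 1 + 2 = t + 3 by ring] at h2
  rw [show t + 2 + 1 = t + 3 by ring, show t + 2 + 2 = t + 4 by ring] at h3
  rw [show t + 3 + 1 = t + 4 by ring, show t + 3 + 2 = t + 5 by ring] at h4
  rw [show t + 4 + 1 = t + 5 by ring, show t + 4 + 2 = t + 6 by ring, p0] at h5
  rw [show t + 5 + 1 = t + 6 by ring, show t + 5 + 2 = t + 1 + 6 by ring, p0, p1] at h6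
  exact (dec_six _ _ _ _ _ _ h0 h1 h2 h3 h4 h5 h6).symm

/-- `x + ℤ` is discrete -/
theorem ev_coset (x y : ℝ) : ∀ᶠ t in 𝓝[≠] y, ∀ n : ℤ, t ≠ x + n := by
  by_cases hy : ∃ n : ℤ, y = x + n
  · obtain ⟨m, hm⟩ := hy
    have h1 : ∀ᶠ t in 𝓝[≠] y, t ∈ Ioo (y - 1) (y + 1) :=
      mem_nhdsWithin_of_mem_nhds (Ioo_mem_nhds (by linarith) (by linarith))
    filter_upwards [h1, self_mem_nhdsWithin] with t ht hty n hn
    have h2 : n = m := by
      have h3 : (n : ℝ) < m + 1 := by linarith [ht.2]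
      have h4 : (m : ℝ) < n + 1 := by linarith [ht.1]
      have h5 : n < m + 1 := by exact_mod_cast h3
      have h6 : m < n + 1 := by exact_mod_cast h4
      omega
    exact hty (show t = y by rw [hn, hm, h2])
  · have h1 : (⌊y - x⌋ : ℝ) < y - x := by
      refine lt_of_le_of_ne (Int.floor_le _) fun h => hy ⟨⌊y - x⌋, ?_⟩
      rw [h]; ring
    have h2 := Int.lt_floor_add_one (y - x)
    have h3 : ∀ᶠ t in 𝓝[≠] y, t ∈ Ioo (x + (⌊y - x⌋ : ℝ)) (x + (⌊y - x⌋ : ℝ) + 1) :=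
      mem_nhdsWithin_of_mem_nhds (Ioo_mem_nhds (by linarith) (by linarith))
    filter_upwards [h3] with t ht n hn
    have h5 : ((⌊y - x⌋ : ℤ) : ℝ) < n := by linarith [ht.1]
    have h6 : (n : ℝ) < (⌊y - x⌋ : ℤ) + 1 := by linarith [ht.2]
    have h7 : ⌊y - x⌋ < n := by exact_mod_cast h5
    have h8 : n < ⌊y - x⌋ + 1 := by exact_mod_cast h6
    omega

/-- generic times are dense: all times near `y` except `y` -/
theorem ev_gen (h : Sign S s) (y : ℝ) : ∀ᶠ t in 𝓝[≠] y, ∀ k : ℤ, t + (k : ℝ) ∉ S := by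
  have h1 : ∀ᶠ t in 𝓝[≠] y, ∀ x ∈ h.fin.toFinset, ∀ n : ℤ, t ≠ x + n :=
    (Finset.eventually_all _).2 fun x _ => ev_coset x y
  filter_upwards [h1] with t ht k hk
  obtain ⟨x, n, hx, hx6, he⟩ := exists_rep (t + k)
  have hxS : x ∈ S := (h.perI x n).1 (by rw [← he]; exact hk)
  refine ht x (h.fin.mem_toFinset.2 ⟨hxS, hx, hx6⟩) (6 * n - k) ?_
  push_cast; linarith

/-- the flips are antipodally symmetric if the number of special directions is even -/
theorem flips (h : Sign S s) (he : Even (S ∩ Ico 0 6).ncard) (y : ℝ) :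
    ind S y + ind S (y + 1) = ind S (y + 3) + ind S (y + 4) := by
  have h1 := h.jump y
  have h2 := h.jump.shift 3 y
  have hg := h.ev_gen y
  have hl : ∀ᶠ t in 𝓝[<] y, ∀ k : ℤ, t + (k : ℝ) ∉ S :=
    hg.filter_mono (nhdsWithin_mono _ fun t ht => ne_of_lt ht)
  have hr : ∀ᶠ t in 𝓝[>] y, ∀ k : ℤ, t + (k : ℝ) ∉ S :=
    hg.filter_mono (nhdsWithin_mono _ fun t ht => ne_of_gt ht)
  obtain ⟨t, ht1, ht2, ht3⟩ := (h1.and (h2.and hl)).exists
  obtain ⟨t', h3, h4, h5⟩ := (ht1.and (ht2.and hr)).exists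
  simp only [show y + 3 + 1 = y + 4 by ring] at h4
  rw [h.anti he ht3, h.anti he h5, h3] at h4
  exact add_left_cancel h4

/-- **Parity lemma.** -/
theorem parity (h : Sign S s) (he : Even (S ∩ Ico 0 6).ncard) (y : ℝ) :
    (∀ k : ℤ, y + (k : ℝ) ∈ S ↔ y + (k : ℝ) + 3 ∈ S) ∨
      (∀ k : ℤ, ¬ (y + (k : ℝ) ∈ S ↔ y + (k : ℝ) + 3 ∈ S)) := by
  have h1 : ∀ x, ind S (x + 1) + ind S (x + 1 + 3) = ind S x + ind S (x + 3) := by
    intro x
    have h2 := h.flips he x
    rw [show x + 1 + 3 = x + 4 by ring]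
    have h3 : ind S (x + 1) + ind S (x + 4) + (ind S x + ind S (x + 3)) =
        (ind S x + ind S (x + 1)) + (ind S (x + 3) + ind S (x + 4)) := by ring
    rw [← z2, h3, h2, z2_self]
  have h2 : ∀ n : ℤ, ind S (y + n) + ind S (y + n + 3) = ind S y + ind S (y + 3) := by
    intro n
    induction n using Int.induction_on with
    | zero => simp
    | succ n ih =>
      rw [← ih, ← h1 (y + ((n : ℤ) : ℝ))]
      push_cast
      rw [add_assoc y (n : ℝ) 1]
    | pred n ih =>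
      have h3 := h1 (y + (((-(n : ℤ) - 1 : ℤ)) : ℝ))
      rw [show y + (((-(n : ℤ) - 1 : ℤ)) : ℝ) + 1 = y + ((-(n : ℤ) : ℤ) : ℝ) by
        push_cast; ring] at h3
      rw [← h3]; exact ih
  by_cases h4 : ind S y + ind S (y + 3) = 0
  · left
    intro k
    rw [← ind_add, h2, h4]
  · right
    intro k
    rw [← ind_add, h2]
    exact h4

/-- **Spanning lemma.** -/
theorem spanning (h : Sign S s) {a b : ℝ} (hab : a + 3 < b) : ∃ x ∈ S, a < x ∧ x < b := by
  by_contra hcon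
  push Not at hcon
  have hB : ∀ x ∈ Ioo a (b - 1), x ∉ {x | x ∈ S ∨ x + 1 ∈ S} := by
    rintro x hx (h1 | h1)
    · have := hcon x h1 hx.1; linarith [hx.2]
    · have := hcon (x + 1) h1 (by linarith [hx.1]); linarith [hx.2]
  have hconst : ∀ x ∈ Ioo a (b - 1), ∀ y ∈ Ioo a (b - 1), s x = s y := by
    intro x hx y hy
    have h1 : IsPreconnected (Ioo a (b - 1)) := isPreconnected_Ioo
    have h2 : ContinuousOn s (Ioo a (b - 1)) := by
      intro u hu
      have h3 := h.gen u (hB u hu)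
      exact (tendsto_nhds_of_eventually_eq h3).mono_left nhdsWithin_le_nhds
    exact h1.constant h2 hx hy
  obtain ⟨t, ht1, ht2⟩ : ∃ t, t ∈ Ioo a (b - 3) ∧ ∀ k : ℤ, t + (k : ℝ) ∉ S := by
    have h1 : ∀ᶠ t in 𝓝[>] a, t ∈ Ioo a (b - 3) := Ioo_mem_nhdsGT (by linarith)
    have h2 : ∀ᶠ t in 𝓝[>] a, ∀ k : ℤ, t + (k : ℝ) ∉ S :=
      (h.ev_gen a).filter_mono (nhdsWithin_mono _ fun t ht => ne_of_gt ht)
    exact (h1.and h2).exists
  refine h.no t ht2 ⟨hconst _ ⟨ht1.1, by linarith [ht1.2]⟩ _ ⟨by linarith [ht1.1], by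
    linarith [ht1.2]⟩, hconst _ ⟨by linarith [ht1.1], by linarith [ht1.2]⟩ _
    ⟨by linarith [ht1.1], by linarith [ht1.2]⟩⟩

/-- the parity lemma when no two special directions are neighbours (60 degrees) -/
theorem parity_of_noadj (h : Sign S s) (he : Even (S ∩ Ico 0 6).ncard)
    (hadj : ∀ x ∈ S, x + 1 ∉ S) {x : ℝ} (hx : x ∈ S) :
    x + 3 ∈ S ∨ (x + 2 ∈ S ∧ x + 4 ∈ S) := by
  rcases h.parity he x with h1 | h1
  · left
    have := h1 0
    simpa [hx] using this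
  · right
    have h5 : x + 5 ∉ S := fun hcon => by
      have := hadj _ hcon
      rw [show x + 5 + 1 = x + 6 by ring, h.per] at this
      exact this hx
    have h11 : x + 1 ∉ S := hadj x hx
    have e1 := h1 1
    have e2 := h1 2
    push_cast at e1 e2
    rw [show x + 1 + 3 = x + 4 by ring] at e1
    rw [show x + 2 + 3 = x + 5 by ring] at e2
    tauto

end Sign

end Vale.Agent.P032.H889.Sgn
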